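import Vale.Agent.H55.TorusGeneral
import Vale.Agent.H55.KB.Main
import Vale.Agent.H55.Sph.Main
import Vale.Agent.H55.RP.Weak

/-!
Smooth isometric immersions into `ℝ⁴` of
* every torus `ℝ²/ℤ²` and every Klein bottle
  `ℝ² / ⟨(x, y) ↦ (x + 1, y), (x, y) ↦ (-x, y + 1)⟩` carrying an `S¹`-invariant metric
  `E(x) dx² + 2 F(x) dx dy + G(x) dy²`;
* every rotationally symmetric sphere `ds² + g(s)² dθ²`, `0 ≤ s ≤ L`, whose curvature is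
  negative at both poles and whose profile satisfies `|g'| < 2`;
* the projective plane obtained from such a sphere with `g (L - s) = g s` by dividing by the
  antipodal map `(s, θ) ↦ (L - s, θ + π)`.
-/

namespace Vale.Agent.Results.P205.A000_TorusKleinSphereRP2

open scoped ContDiff

/-- The map `Φ : ℝ² → ℝ⁴` pulls the Euclidean metric back to
`E(x) dx² + 2 F(x) dx dy + G(x) dy²`: at every point `p = (x, y)` the partial derivatives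
`Φ_x = dΦ_p (1, 0)` and `Φ_y = dΦ_p (0, 1)` satisfy `⟨Φ_x, Φ_x⟩ = E x`, `⟨Φ_x, Φ_y⟩ = F x`,
`⟨Φ_y, Φ_y⟩ = G x`. -/
def PullsBack (E F G : ℝ → ℝ) (Φ : ℝ × ℝ → EuclideanSpace ℝ (Fin 4)) : Prop :=
  ∀ p : ℝ × ℝ,
    inner ℝ (fderiv ℝ Φ p (1, 0)) (fderiv ℝ Φ p (1, 0)) = E p.1 ∧
    inner ℝ (fderiv ℝ Φ p (1, 0)) (fderiv ℝ Φ p (0, 1)) = F p.1 ∧
    inner ℝ (fderiv ℝ Φ p (0, 1)) (fderiv ℝ Φ p (0, 1)) = G p.1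

/-- `Ψ` is isometric at the origin for the Euclidean metric `dx² + dy²` (which is the metric
`ds² + g(s)² dθ²` at a pole, in the Cartesian chart `(x, y) = (s cos θ, s sin θ)`). -/
def PoleIsom (Ψ : ℝ × ℝ → EuclideanSpace ℝ (Fin 4)) : Prop :=
  inner ℝ (fderiv ℝ Ψ (0, 0) (1, 0)) (fderiv ℝ Ψ (0, 0) (1, 0)) = (1 : ℝ) ∧
  inner ℝ (fderiv ℝ Ψ (0, 0) (1, 0)) (fderiv ℝ Ψ (0, 0) (0, 1)) = (0 : ℝ) ∧
  inner ℝ (fderiv ℝ Ψ (0, 0) (0, 1)) (fderiv ℝ Ψ (0, 0) (0, 1)) = (1 : ℝ)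

/-- A smooth isometric immersion into `ℝ⁴` of the sphere with metric `ds² + g(s)² dθ²`,
`0 ≤ s ≤ L`: a map `Φ` in the polar chart `(s, θ)` on `(0, L) × ℝ`, `2π`-periodic in `θ`,
with first fundamental form `ds² + g² dθ²`, which near each pole is the polar-coordinate
expression of a map `ΨN` (resp. `ΨS`) that is smooth on a disc in the Cartesian chart
`(x, y) = (s cos θ, s sin θ)` (resp. `((L - s) cos θ, (L - s) sin θ)`) and isometric at its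
centre. -/
def SphereImm (L : ℝ) (g : ℝ → ℝ) : Prop :=
  ∃ (Φ ΨN ΨS : ℝ × ℝ → EuclideanSpace ℝ (Fin 4)) (δ : ℝ), 0 < δ ∧
    ContDiffOn ℝ ∞ Φ (Set.Ioo 0 L ×ˢ Set.univ) ∧
    (∀ s θ : ℝ, Φ (s, θ + 2 * Real.pi) = Φ (s, θ)) ∧
    (∀ p : ℝ × ℝ, 0 < p.1 → p.1 < L →
      inner ℝ (fderiv ℝ Φ p (1, 0)) (fderiv ℝ Φ p (1, 0)) = (1 : ℝ) ∧
      inner ℝ (fderiv ℝ Φ p (1, 0)) (fderiv ℝ Φ p (0, 1)) = (0 : ℝ) ∧
      inner ℝ (fderiv ℝ Φ p (0, 1)) (fderiv ℝ Φ p (0, 1)) = g p.1 ^ 2) ∧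
    ContDiffOn ℝ ∞ ΨN {q : ℝ × ℝ | q.1 ^ 2 + q.2 ^ 2 < δ ^ 2} ∧
    ContDiffOn ℝ ∞ ΨS {q : ℝ × ℝ | q.1 ^ 2 + q.2 ^ 2 < δ ^ 2} ∧
    PoleIsom ΨN ∧ PoleIsom ΨS ∧
    (∀ s θ : ℝ, 0 < s → s < δ → Φ (s, θ) = ΨN (s * Real.cos θ, s * Real.sin θ)) ∧
    (∀ s θ : ℝ, 0 < s → s < δ → Φ (L - s, θ) = ΨS (s * Real.cos θ, s * Real.sin θ))

/-- A smooth isometric immersion into `ℝ⁴` of the projective plane obtained from the sphere with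
metric `ds² + g(s)² dθ²`, `0 ≤ s ≤ L`, by dividing by the antipodal map
`(s, θ) ↦ (L - s, θ + π)`: the conditions of `SphereImm`, and in addition
`Φ (L - s, θ + π) = Φ (s, θ)` for `0 < s < L`. -/
def ProjImm (L : ℝ) (g : ℝ → ℝ) : Prop :=
  ∃ (Φ ΨN ΨS : ℝ × ℝ → EuclideanSpace ℝ (Fin 4)) (δ : ℝ), 0 < δ ∧
    ContDiffOn ℝ ∞ Φ (Set.Ioo 0 L ×ˢ Set.univ) ∧
    (∀ s θ : ℝ, Φ (s, θ + 2 * Real.pi) = Φ (s, θ)) ∧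
    (∀ s θ : ℝ, 0 < s → s < L → Φ (L - s, θ + Real.pi) = Φ (s, θ)) ∧
    (∀ p : ℝ × ℝ, 0 < p.1 → p.1 < L →
      inner ℝ (fderiv ℝ Φ p (1, 0)) (fderiv ℝ Φ p (1, 0)) = (1 : ℝ) ∧
      inner ℝ (fderiv ℝ Φ p (1, 0)) (fderiv ℝ Φ p (0, 1)) = (0 : ℝ) ∧
      inner ℝ (fderiv ℝ Φ p (0, 1)) (fderiv ℝ Φ p (0, 1)) = g p.1 ^ 2) ∧
    ContDiffOn ℝ ∞ ΨN {q : ℝ × ℝ | q.1 ^ 2 + q.2 ^ 2 < δ ^ 2} ∧
    ContDiffOn ℝ ∞ ΨS {q : ℝ × ℝ | q.1 ^ 2 + q.2 ^ 2 < δ ^ 2} ∧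
    PoleIsom ΨN ∧ PoleIsom ΨS ∧
    (∀ s θ : ℝ, 0 < s → s < δ → Φ (s, θ) = ΨN (s * Real.cos θ, s * Real.sin θ)) ∧
    (∀ s θ : ℝ, 0 < s → s < δ → Φ (L - s, θ) = ΨS (s * Real.cos θ, s * Real.sin θ))

theorem result :
    (∀ E F G : ℝ → ℝ, ContDiff ℝ ∞ E → ContDiff ℝ ∞ F → ContDiff ℝ ∞ G →
      (∀ x, E (x + 1) = E x) → (∀ x, F (x + 1) = F x) → (∀ x, G (x + 1) = G x) →
      (∀ x, 0 < G x) → (∀ x, 0 < E x * G x - F x ^ 2) →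
      ∃ Φ : ℝ × ℝ → EuclideanSpace ℝ (Fin 4),
        ContDiff ℝ ∞ Φ ∧ (∀ p : ℝ × ℝ, Φ (p.1 + 1, p.2) = Φ p) ∧
        (∀ p : ℝ × ℝ, Φ (p.1, p.2 + 1) = Φ p) ∧ PullsBack E F G Φ) ∧
    (∀ E F G : ℝ → ℝ, ContDiff ℝ ∞ E → ContDiff ℝ ∞ F → ContDiff ℝ ∞ G →
      (∀ x, E (x + 1) = E x) → (∀ x, F (x + 1) = F x) → (∀ x, G (x + 1) = G x) →
      (∀ x, E (-x) = E x) → (∀ x, F (-x) = -F x) → (∀ x, G (-x) = G x) →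
      (∀ x, 0 < G x) → (∀ x, 0 < E x * G x - F x ^ 2) →
      ∃ Φ : ℝ × ℝ → EuclideanSpace ℝ (Fin 4),
        ContDiff ℝ ∞ Φ ∧ (∀ p : ℝ × ℝ, Φ (p.1 + 1, p.2) = Φ p) ∧
        (∀ p : ℝ × ℝ, Φ (-p.1, p.2 + 1) = Φ p) ∧ PullsBack E F G Φ) ∧
    (∀ (L ε : ℝ) (g h hS : ℝ → ℝ), 0 < L → 0 < ε →
      ContDiff ℝ ∞ g → ContDiff ℝ ∞ h → ContDiff ℝ ∞ hS →
      (∀ s, |s| < ε → g s = s * h (s ^ 2)) →
      (∀ s, |s - L| < ε → g s = (L - s) * hS ((L - s) ^ 2)) →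
      h 0 = 1 → hS 0 = 1 → (∀ s, 0 < s → s < L → 0 < g s) →
      0 < deriv h 0 → 0 < deriv hS 0 → (∀ s, 0 ≤ s → s ≤ L → |deriv g s| < 2) →
      SphereImm L g) ∧
    (∀ (L ε : ℝ) (g h : ℝ → ℝ), 0 < L → 0 < ε → ContDiff ℝ ∞ g → ContDiff ℝ ∞ h →
      (∀ s, |s| < ε → g s = s * h (s ^ 2)) → h 0 = 1 → 0 < deriv h 0 →
      (∀ s, 0 < s → s < L → 0 < g s) → (∀ s, 0 ≤ s → s ≤ L → |deriv g s| < 2) →
      (∀ s, 0 ≤ s → s ≤ L → g (L - s) = g s) →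
      ProjImm L g) :=
  ⟨fun E F G hE hF hG pE pF pG hGpos hdet =>
      Vale.Agent.H55.Imm.general_twist E F G hE hF hG pE pF pG hGpos hdet,
    fun E F G hE hF hG pE pF pG eE oF eG hGpos hdet =>
      Vale.Agent.H55.KB.klein_immersion E F G hE hF hG pE pF pG eE oF eG hGpos hdet,
    fun L ε g h hS hL hε sg sh shS gN gS h0 hS0 gpos KN KS slope =>
      Vale.Agent.H55.Sph.sphere_immersion L ε g h hS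
        ⟨hL, hε, sg, sh, shS, gN, gS, h0, hS0, gpos, KN, KS, slope⟩,
    fun L ε g h hL hε sg sh gN h0 KN gpos slope sym =>
      Vale.Agent.H55.RP.rp_immersion_weak L ε g h hL hε sg sh gN h0 sym gpos KN slope⟩

end Vale.Agent.Results.P205.A000_TorusKleinSphereRP2
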