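import Vale.Agent.H55.TorusGeneral
import Vale.Agent.H55.KB.Main

/-!
Smooth isometric immersions into `ℝ⁴` of every torus `ℝ²/ℤ²` and every Klein bottle
`ℝ² / ⟨(x, y) ↦ (x + 1, y), (x, y) ↦ (-x, y + 1)⟩` carrying an `S¹`-invariant metric
`E(x) dx² + 2 F(x) dx dy + G(x) dy²`.
-/

namespace Vale.Agent.Results.P205.A0_InvariantTorusKlein

open scoped ContDiff

/-- The map `Φ : ℝ² → ℝ⁴` pulls the Euclidean metric back to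
`E(x) dx² + 2 F(x) dx dy + G(x) dy²`: at every point `p = (x, y)` the partial derivatives
`Φ_x = dΦ_p (1, 0)` and `Φ_y = dΦ_p (0, 1)` satisfy `⟨Φ_x, Φ_x⟩ = E x`, `⟨Φ_x, Φ_y⟩ = F x`,
`⟨Φ_y, Φ_y⟩ = G x`. -/
def PullsBack (E F G : ℝ → ℝ) (Φ : ℝ × ℝ → EuclideanSpace ℝ (Fin 4)) : Prop :=
  ∀ p : ℝ × ℝ,
    inner ℝ (fderiv ℝ Φ p (1, 0)) (fderiv ℝ Φ p (1, 0)) = E p.1 ∧
    inner ℝ (fderiv ℝ Φ p (1, 0)) (fderiv ℝ Φ p (0, 1)) = F p.1 ∧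
    inner ℝ (fderiv ℝ Φ p (0, 1)) (fderiv ℝ Φ p (0, 1)) = G p.1

theorem result :
    (∀ E F G : ℝ → ℝ, ContDiff ℝ ∞ E → ContDiff ℝ ∞ F → ContDiff ℝ ∞ G →
      (∀ x, E (x + 1) = E x) → (∀ x, F (x + 1) = F x) → (∀ x, G (x + 1) = G x) →
      (∀ x, 0 < G x) → (∀ x, 0 < E x * G x - F x ^ 2) →
      ∃ Φ : ℝ × ℝ → EuclideanSpace ℝ (Fin 4),
        ContDiff ℝ ∞ Φ ∧ (∀ p : ℝ × ℝ, Φ (p.1 + 1, p.2) = Φ p) ∧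
        (∀ p : ℝ × ℝ, Φ (p.1, p.2 + 1) = Φ p) ∧ PullsBack E F G Φ) ∧
    (∀ E F G : ℝ → ℝ, ContDiff ℝ ∞ E → ContDiff ℝ ∞ F → ContDiff ℝ ∞ G →
      (∀ x, E (x + 1) = E x) → (∀ x, F (x + 1) = F x) → (∀ x, G (x + 1) = G x) →
      (∀ x, E (-x) = E x) → (∀ x, F (-x) = -F x) → (∀ x, G (-x) = G x) →
      (∀ x, 0 < G x) → (∀ x, 0 < E x * G x - F x ^ 2) →
      ∃ Φ : ℝ × ℝ → EuclideanSpace ℝ (Fin 4),
        ContDiff ℝ ∞ Φ ∧ (∀ p : ℝ × ℝ, Φ (p.1 + 1, p.2) = Φ p) ∧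
        (∀ p : ℝ × ℝ, Φ (-p.1, p.2 + 1) = Φ p) ∧ PullsBack E F G Φ) :=
  ⟨fun E F G hE hF hG pE pF pG hGpos hdet =>
      Vale.Agent.H55.Imm.general_twist E F G hE hF hG pE pF pG hGpos hdet,
    fun E F G hE hF hG pE pF pG eE oF eG hGpos hdet =>
      Vale.Agent.H55.KB.klein_immersion E F G hE hF hG pE pF pG eE oF eG hGpos hdet⟩

end Vale.Agent.Results.P205.A0_InvariantTorusKlein
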