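import Vale.Agent.H55.Sph.Main

/-!
Smooth isometric immersions into `ℝ⁴` of every rotationally symmetric sphere
`ds² + g(s)² dθ²`, `0 ≤ s ≤ L`, whose curvature is negative at both poles and whose profile
satisfies `|g'| < 2`.
-/

namespace Vale.Agent.Results.P205.A1_SphereNegativePoles

open scoped ContDiff

/-- `Ψ` is isometric at the origin for the Euclidean metric `dx² + dy²` (which is the metric
`ds² + g(s)² dθ²` at a pole, in the Cartesian chart `(x, y) = (s cos θ, s sin θ)`). -/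
def PoleIsom (Ψ : ℝ × ℝ → EuclideanSpace ℝ (Fin 4)) : Prop :=
  inner ℝ (fderiv ℝ Ψ (0, 0) (1, 0)) (fderiv ℝ Ψ (0, 0) (1, 0)) = (1 : ℝ) ∧
  inner ℝ (fderiv ℝ Ψ (0, 0) (1, 0)) (fderiv ℝ Ψ (0, 0) (0, 1)) = (0 : ℝ) ∧
  inner ℝ (fderiv ℝ Ψ (0, 0) (0, 1)) (fderiv ℝ Ψ (0, 0) (0, 1)) = (1 : ℝ)

/-- A smooth isometric immersion into `ℝ⁴` of the sphere with metric `ds² + g(s)² dθ²`,
`0 ≤ s ≤ L`: a map `Φ` in the polar chart `(s, θ)` on `(0, L) × ℝ`, `2π`-periodic in `θ`,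
with first fundamental form `ds² + g² dθ²`, which near each pole is the polar-coordinate
expression of a map `ΨN` (resp. `ΨS`) that is smooth on a disc in the Cartesian chart
`(x, y) = (s cos θ, s sin θ)` (resp. `((L - s) cos θ, (L - s) sin θ)`) and isometric at its
centre. -/
def SphereImm (L : ℝ) (g : ℝ → ℝ) : Prop :=
  ∃ (Φ ΨN ΨS : ℝ × ℝ → EuclideanSpace ℝ (Fin 4)) (δ : ℝ), 0 < δ ∧
    ContDiffOn ℝ ∞ Φ (Set.Ioo 0 L ×ˢ Set.univ) ∧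
    (∀ s θ : ℝ, Φ (s, θ + 2 * Real.pi) = Φ (s, θ)) ∧
    (∀ p : ℝ × ℝ, 0 < p.1 → p.1 < L →
      inner ℝ (fderiv ℝ Φ p (1, 0)) (fderiv ℝ Φ p (1, 0)) = (1 : ℝ) ∧
      inner ℝ (fderiv ℝ Φ p (1, 0)) (fderiv ℝ Φ p (0, 1)) = (0 : ℝ) ∧
      inner ℝ (fderiv ℝ Φ p (0, 1)) (fderiv ℝ Φ p (0, 1)) = g p.1 ^ 2) ∧
    ContDiffOn ℝ ∞ ΨN {q : ℝ × ℝ | q.1 ^ 2 + q.2 ^ 2 < δ ^ 2} ∧
    ContDiffOn ℝ ∞ ΨS {q : ℝ × ℝ | q.1 ^ 2 + q.2 ^ 2 < δ ^ 2} ∧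
    PoleIsom ΨN ∧ PoleIsom ΨS ∧
    (∀ s θ : ℝ, 0 < s → s < δ → Φ (s, θ) = ΨN (s * Real.cos θ, s * Real.sin θ)) ∧
    (∀ s θ : ℝ, 0 < s → s < δ → Φ (L - s, θ) = ΨS (s * Real.cos θ, s * Real.sin θ))

theorem result (L ε : ℝ) (g h hS : ℝ → ℝ) (hL : 0 < L) (hε : 0 < ε)
    (sg : ContDiff ℝ ∞ g) (sh : ContDiff ℝ ∞ h) (shS : ContDiff ℝ ∞ hS)
    (gN : ∀ s, |s| < ε → g s = s * h (s ^ 2))
    (gS : ∀ s, |s - L| < ε → g s = (L - s) * hS ((L - s) ^ 2))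
    (h0 : h 0 = 1) (hS0 : hS 0 = 1) (gpos : ∀ s, 0 < s → s < L → 0 < g s)
    (KN : 0 < deriv h 0) (KS : 0 < deriv hS 0)
    (slope : ∀ s, 0 ≤ s → s ≤ L → |deriv g s| < 2) :
    SphereImm L g :=
  Vale.Agent.H55.Sph.sphere_immersion L ε g h hS
    ⟨hL, hε, sg, sh, shS, gN, gS, h0, hS0, gpos, KN, KS, slope⟩

end Vale.Agent.Results.P205.A1_SphereNegativePoles
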