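import Vale.Agent.H55.TorusGeneral

/-!
Smooth isometric immersions into `ℝ⁴` of every torus `ℝ²/ℤ²` carrying an `S¹`-invariant metric
`E(x) dx² + 2 F(x) dx dy + G(x) dy²` (no condition on the twist `∫₀¹ F/G`).
-/

namespace Vale.Agent.Results.P205.A_InvariantTorus

open scoped ContDiff

theorem result (E F G : ℝ → ℝ)
    (hE : ContDiff ℝ ∞ E) (hF : ContDiff ℝ ∞ F) (hG : ContDiff ℝ ∞ G)
    (pE : ∀ x, E (x + 1) = E x) (pF : ∀ x, F (x + 1) = F x) (pG : ∀ x, G (x + 1) = G x)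
    (hGpos : ∀ x, 0 < G x) (hdet : ∀ x, 0 < E x * G x - F x ^ 2) :
    ∃ Φ : ℝ × ℝ → EuclideanSpace ℝ (Fin 4),
      ContDiff ℝ ∞ Φ ∧ (∀ p : ℝ × ℝ, Φ (p.1 + 1, p.2) = Φ p) ∧
      (∀ p : ℝ × ℝ, Φ (p.1, p.2 + 1) = Φ p) ∧
      ∀ p : ℝ × ℝ,
        inner ℝ (fderiv ℝ Φ p (1, 0)) (fderiv ℝ Φ p (1, 0)) = E p.1 ∧
        inner ℝ (fderiv ℝ Φ p (1, 0)) (fderiv ℝ Φ p (0, 1)) = F p.1 ∧
        inner ℝ (fderiv ℝ Φ p (0, 1)) (fderiv ℝ Φ p (0, 1)) = G p.1 :=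
  Vale.Agent.H55.Imm.general_twist E F G hE hF hG pE pF pG hGpos hdet

end Vale.Agent.Results.P205.A_InvariantTorus
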